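import Vale.Agent.P240.R2.H703.QF3

/-!
The quadratic extension belonging to an anisotropic binary form, with its involution.
-/

set_option autoImplicit false

namespace Vale.Agent.P240.R2.H703

open Module

universe u

/-- in an extension of degree two, `1` and any element outside of the small field span -/
lemma span_two {F K : Type*} [Field F] [Field K] [Algebra F K] [Module.Finite F K]
    (hK : finrank F K = 2) {θ : K} (hnot : ∀ t : F, algebraMap F K t ≠ θ) (z : K) :
    ∃ x y : F, z = algebraMap F K x + algebraMap F K y * θ := by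
  let L : (F × F) →ₗ[F] K :=
    { toFun := fun q => algebraMap F K q.1 + algebraMap F K q.2 * θ
      map_add' := fun q r => by
        simp only [Prod.fst_add, Prod.snd_add, map_add]
        ring
      map_smul' := by
        rintro a ⟨x, y⟩
        simp only [Prod.smul_mk, smul_eq_mul, map_mul, RingHom.id_apply]
        rw [Algebra.smul_def]
        ring }
  have hL : Function.Injective L := by
    rw [← LinearMap.ker_eq_bot, LinearMap.ker_eq_bot']
    rintro ⟨x, y⟩ hxy
    have h1 : algebraMap F K x + algebraMap F K y * θ = 0 := hxy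
    by_cases hy : y = 0
    · rw [hy, map_zero, zero_mul, add_zero] at h1
      have h2 : x = 0 := (algebraMap F K).injective (by rw [h1, map_zero])
      rw [h2, hy]
      rfl
    · exfalso
      apply hnot (-(x / y))
      have hy' : algebraMap F K y ≠ 0 := by
        rw [Ne, map_eq_zero]
        exact hy
      rw [map_neg, map_div₀]
      field_simp
      linear_combination -h1
  have hsurj : Function.Surjective L :=
    (LinearMap.injective_iff_surjective_of_finrank_eq_finrank (by
      rw [Module.finrank_prod, Module.finrank_self, hK])).1 hL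
  obtain ⟨⟨x, y⟩, hxy⟩ := hsurj z
  exact ⟨x, y, hxy.symm⟩

/-- The quadratic extension with its involution, for `T ^ 2 - T + c` irreducible. -/
theorem exists_BC {F : Type u} [Field F] [Finite F] {c : F}
    (hc : ∀ t : F, t ^ 2 + t + c ≠ 0) :
    ∃ (K : Type u) (_ : Field K) (_ : Finite K) (_ : Algebra F K) (σ : K ≃+* K) (θ : K),
      (∀ x, σ (σ x) = x) ∧ (∀ x : K, σ x = x → ∃ y : F, algebraMap F K y = x) ∧
      (∀ y : F, σ (algebraMap F K y) = algebraMap F K y) ∧ θ + σ θ = 1 ∧
      θ * σ θ = algebraMap F K c ∧ σ θ ≠ θ ∧ ∀ p : ℕ, CharP F p → CharP K p := by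
  let p : Polynomial F := Polynomial.X ^ 2 - Polynomial.X + Polynomial.C c
  have hdeg : p.natDegree = 2 := by
    show (Polynomial.X ^ 2 - Polynomial.X + Polynomial.C c : Polynomial F).natDegree = 2
    compute_degree!
  have hp0 : p ≠ 0 := by
    intro h
    rw [h, Polynomial.natDegree_zero] at hdeg
    exact absurd hdeg (by norm_num)
  have hirr : Irreducible p := by
    refine Polynomial.irreducible_of_degree_le_three_of_not_isRoot ?_ fun t ht => ?_
    · rw [hdeg]
      simp
    · refine hc (-t) ?_
      have h1 : t ^ 2 - t + c = 0 := by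
        have h2 : Polynomial.eval t (Polynomial.X ^ 2 - Polynomial.X + Polynomial.C c) = 0 := ht
        simpa using h2
      linear_combination h1
  have : Fact (Irreducible p) := ⟨hirr⟩
  have hfr : finrank F (AdjoinRoot p) = 2 := by
    rw [(AdjoinRoot.powerBasis hp0).finrank, AdjoinRoot.powerBasis_dim, hdeg]
  have hfin : Module.Finite F (AdjoinRoot p) := Module.finite_of_finrank_pos (by omega)
  have hKf : Finite (AdjoinRoot p) := Module.finite_of_finite F
  have hθ : (AdjoinRoot.root p) ^ 2 =
      AdjoinRoot.root p - algebraMap F (AdjoinRoot p) c := by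
    have h1 := AdjoinRoot.eval₂_root p
    have h2 : Polynomial.eval₂ (AdjoinRoot.of p) (AdjoinRoot.root p)
      (Polynomial.X ^ 2 - Polynomial.X + Polynomial.C c) = 0 := h1
    simp only [Polynomial.eval₂_add, Polynomial.eval₂_sub, Polynomial.eval₂_pow,
      Polynomial.eval₂_X, Polynomial.eval₂_C] at h2
    have h4 : AdjoinRoot.of p c = algebraMap F (AdjoinRoot p) c := rfl
    rw [h4] at h2
    linear_combination h2
  have hnot : ∀ t : F, algebraMap F (AdjoinRoot p) t ≠ AdjoinRoot.root p := by
    intro t ht
    apply hc (-t)
    apply (algebraMap F (AdjoinRoot p)).injective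
    rw [map_zero, map_add, map_add, map_pow, map_neg, ht]
    linear_combination hθ
  have hev : Polynomial.eval₂ (algebraMap F (AdjoinRoot p)) (1 - AdjoinRoot.root p) p = 0 := by
    show Polynomial.eval₂ (algebraMap F (AdjoinRoot p)) (1 - AdjoinRoot.root p)
      (Polynomial.X ^ 2 - Polynomial.X + Polynomial.C c) = 0
    simp only [Polynomial.eval₂_add, Polynomial.eval₂_sub, Polynomial.eval₂_pow,
      Polynomial.eval₂_X, Polynomial.eval₂_C]
    linear_combination hθ
  let s : AdjoinRoot p →ₐ[F] AdjoinRoot p :=
    AdjoinRoot.liftAlgHom p (Algebra.ofId F (AdjoinRoot p)) (1 - AdjoinRoot.root p) hev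
  have hs : s (AdjoinRoot.root p) = 1 - AdjoinRoot.root p := by
    show AdjoinRoot.liftAlgHom p (Algebra.ofId F (AdjoinRoot p)) (1 - AdjoinRoot.root p) hev
      (AdjoinRoot.root p) = _
    exact AdjoinRoot.liftAlgHom_root _ _ _ _
  have hss : s.comp s = AlgHom.id F (AdjoinRoot p) := by
    apply AdjoinRoot.algHom_ext
    rw [AlgHom.comp_apply, hs, map_sub, map_one, hs, AlgHom.id_apply]
    ring
  have hss' : ∀ x, s (s x) = x := fun x => by
    have := congrArg (fun f : AdjoinRoot p →ₐ[F] AdjoinRoot p => f x) hss
    simpa using this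
  have htwo : ∀ y : F, algebraMap F (AdjoinRoot p) y * (1 - 2 * AdjoinRoot.root p) = 0 →
      y = 0 := by
    intro y hy
    rcases mul_eq_zero.1 hy with h | h
    · rwa [map_eq_zero] at h
    · exfalso
      by_cases h2 : (2 : F) = 0
      · have h3 : (2 : AdjoinRoot p) = 0 := by
          have := congrArg (algebraMap F (AdjoinRoot p)) h2
          rwa [map_zero, map_ofNat] at this
        rw [h3, zero_mul, sub_zero] at h
        exact one_ne_zero h
      · apply hnot (2 : F)⁻¹
        have h3 : (2 : AdjoinRoot p) ≠ 0 := by
          intro h4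
          apply h2
          apply (algebraMap F (AdjoinRoot p)).injective
          rw [map_zero, map_ofNat, h4]
        rw [map_inv₀, map_ofNat]
        field_simp
        linear_combination h
  have hne : s (AdjoinRoot.root p) ≠ AdjoinRoot.root p := by
    intro h
    rw [hs] at h
    have h1 := htwo 1 (by rw [map_one, one_mul]; linear_combination h)
    exact one_ne_zero h1
  refine ⟨AdjoinRoot p, inferInstance, hKf, inferInstance,
    (AlgEquiv.ofAlgHom s s hss hss).toRingEquiv, AdjoinRoot.root p, ?_, ?_, ?_, ?_, ?_, ?_, ?_⟩
  · exact fun x => hss' x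
  · intro x hx
    have hx' : s x = x := hx
    obtain ⟨a, b, rfl⟩ := span_two hfr hnot x
    rw [map_add, map_mul, AlgHom.commutes, AlgHom.commutes, hs] at hx'
    have hb : b = 0 := htwo b (by linear_combination hx')
    exact ⟨a, by rw [hb, map_zero, zero_mul, add_zero]⟩
  · intro y
    exact s.commutes y
  · show AdjoinRoot.root p + s (AdjoinRoot.root p) = 1
    rw [hs]
    ring
  · show AdjoinRoot.root p * s (AdjoinRoot.root p) = _
    rw [hs]
    linear_combination -hθ
  · exact hne
  · intro q hq
    exact charP_of_injective_algebraMap (algebraMap F (AdjoinRoot p)).injective q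

end Vale.Agent.P240.R2.H703
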