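import Vale.Agent.P240.R2.H703.QF2

/-!
Normal forms of quadratic forms over a finite field, matrix version, and the norm form of the
quadratic extension.
-/

set_option autoImplicit false

namespace Vale.Agent.P240.R2.H703

open Module QuadraticMap

section
variable {F : Type*} [Field F]

/-- the matrix of a linear automorphism of the coordinate space, as an element of `GL` -/
noncomputable def toGL {n : ℕ} (e : (Fin n → F) ≃ₗ[F] (Fin n → F)) :
    Matrix.GeneralLinearGroup (Fin n) F where
  val := LinearMap.toMatrix' (e : (Fin n → F) →ₗ[F] (Fin n → F))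
  inv := LinearMap.toMatrix' (e.symm : (Fin n → F) →ₗ[F] (Fin n → F))
  val_inv := by
    rw [← LinearMap.toMatrix'_comp, LinearEquiv.comp_coe, LinearEquiv.symm_trans_self]
    exact LinearMap.toMatrix'_id
  inv_val := by
    rw [← LinearMap.toMatrix'_comp, LinearEquiv.comp_coe, LinearEquiv.self_trans_symm]
    exact LinearMap.toMatrix'_id

lemma toGL_mulVec {n : ℕ} (e : (Fin n → F) ≃ₗ[F] (Fin n → F)) (v : Fin n → F) :
    (toGL e).1.mulVec v = e v := by
  show (LinearMap.toMatrix' (e : (Fin n → F) →ₗ[F] (Fin n → F))).mulVec v = e v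
  rw [LinearMap.toMatrix'_mulVec]
  rfl

lemma splitF_even {n : ℕ} (hn : Even n) (c : F) (x : Fin n → F) :
    splitF n c x = ∑ i with i < i.rev, x i * x i.rev := by
  unfold splitF
  rw [Finset.sum_filter]
  refine Finset.sum_congr rfl fun i _ => ?_
  have h : ¬ i = i.rev := by
    intro h
    have h1 := congrArg Fin.val h
    rw [Fin.val_rev] at h1
    obtain ⟨k, hk⟩ := hn
    have := i.2
    omega
  rw [if_neg h]

lemma nonsplitF_even {k : ℕ} (c : F) (x : Fin (2 * k + 1 + 1) → F) :
    nonsplitF (2 * k + 1 + 1) c x = (∑ i with i.val < k, x i * x i.rev) +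
      (x ⟨k, by omega⟩ ^ 2 + x ⟨k, by omega⟩ * x ⟨k + 1, by omega⟩ +
        c * x ⟨k + 1, by omega⟩ ^ 2) := by
  have h1 : ∀ i : Fin (2 * k + 1 + 1), i.rev.val = 2 * k + 1 - i.val := by
    intro i
    rw [Fin.val_rev]
    have := i.2
    omega
  have h2 : ∀ i : Fin (2 * k + 1 + 1), (if i.val + 1 < i.rev.val then x i * x i.rev
      else if i.val + 1 = i.rev.val then x i ^ 2 + x i * x i.rev + c * x i.rev ^ 2 else 0) =
      (if i.val < k then x i * x i.rev else 0) +
      (if i = ⟨k, by omega⟩ then x i ^ 2 + x i * x i.rev + c * x i.rev ^ 2 else 0) := by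
    intro i
    have h3 := h1 i
    have h4 : i = ⟨k, by omega⟩ ↔ i.val = k := by rw [Fin.ext_iff]
    have h5 : i.val + 1 < i.rev.val ↔ i.val < k := by omega
    have h6 : i.val + 1 = i.rev.val ↔ i.val = k := by
      have := i.2
      omega
    simp only [h4, h5, h6]
    by_cases h7 : i.val < k
    · rw [if_pos h7, if_pos h7, if_neg (by omega), add_zero]
    · rw [if_neg h7, if_neg h7, zero_add]
  unfold nonsplitF
  rw [Finset.sum_congr rfl fun i _ => h2 i, Finset.sum_add_distrib, Finset.sum_ite_eq',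
    if_pos (Finset.mem_univ _), ← Finset.sum_filter]
  have h8 : (⟨k, by omega⟩ : Fin (2 * k + 1 + 1)).rev = ⟨k + 1, by omega⟩ := by
    rw [Fin.ext_iff, h1]
    simp only
    omega
  rw [h8]

variable [Finite F]

/-- Normal forms, matrix version, every finite field and every dimension. -/
theorem normal_form_GL {n : ℕ} (Q : QuadraticForm F (Fin n → F))
    (hQ : ∀ v, (∀ w, polar Q v w = 0) → v = 0) :
    (Odd n ∧ (2 : F) ≠ 0 ∧ ∃ c : F, c ≠ 0 ∧ ∃ P : Matrix.GeneralLinearGroup (Fin n) F,
      ∀ v, Q (P.1.mulVec v) = ∑ i, if i < i.rev then v i * v i.rev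
        else if i = i.rev then c * v i ^ 2 else 0) ∨
    (Even n ∧ ∃ P : Matrix.GeneralLinearGroup (Fin n) F,
      ∀ v, Q (P.1.mulVec v) = ∑ i with i < i.rev, v i * v i.rev) ∨
    (Even n ∧ 2 ≤ n ∧ ∃ c : F, (∀ t : F, t ^ 2 + t + c ≠ 0) ∧
      ∃ P : Matrix.GeneralLinearGroup (Fin n) F, ∀ v, Q (P.1.mulVec v) = nonsplitF n c v) := by
  obtain ⟨h1, h2⟩ := normal_form n (Fin n → F) Q hQ (Module.finrank_fin_fun F)
  rcases h2 with ⟨c, hc, e, he⟩ | ⟨hn, hn2, c, hc, e, he⟩
  · rcases Nat.even_or_odd n with hn | hn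
    · exact Or.inr (Or.inl ⟨hn, toGL e, fun v => by
        rw [toGL_mulVec, he, splitF_even hn]⟩)
    · exact Or.inl ⟨hn, h1 hn, c, hc, toGL e, fun v => by rw [toGL_mulVec, he]; rfl⟩
  · exact Or.inr (Or.inr ⟨hn, hn2, c, hc, toGL e, fun v => by rw [toGL_mulVec, he]⟩)

/-- Characteristic two: the dimension is even, and the form is split or of norm type. -/
theorem normal_form_two (h2 : (2 : F) = 0) {n : ℕ} (Q : QuadraticForm F (Fin n → F))
    (hQ : ∀ v, (∀ w, polar Q v w = 0) → v = 0) :
    ∃ m, n = 2 * m ∧ ((∃ P : Matrix.GeneralLinearGroup (Fin n) F,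
      ∀ v, Q (P.1.mulVec v) = ∑ i with i < i.rev, v i * v i.rev) ∨
    (1 ≤ m ∧ ∃ c : F, (∀ t : F, t ^ 2 + t + c ≠ 0) ∧
      ∃ P : Matrix.GeneralLinearGroup (Fin n) F, ∀ v, Q (P.1.mulVec v) = nonsplitF n c v)) := by
  rcases normal_form_GL Q hQ with h | ⟨hn, h⟩ | ⟨hn, hn2, h⟩
  · exact absurd h2 h.2.1
  · obtain ⟨m, hm⟩ := hn
    exact ⟨m, by omega, Or.inl h⟩
  · obtain ⟨m, hm⟩ := hn
    exact ⟨m, by omega, Or.inr ⟨by omega, h⟩⟩

/-- The same on the index set `Fin (2 * k + 1 + 1)`, all characteristics. -/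
theorem normal_form_VI {k : ℕ} (Q : QuadraticForm F (Fin (2 * k + 1 + 1) → F))
    (hQ : ∀ v, (∀ w, polar Q v w = 0) → v = 0) :
    (∃ P : Matrix.GeneralLinearGroup (Fin (2 * k + 1 + 1)) F,
      ∀ v, Q (P.1.mulVec v) = ∑ i with i < Fin.rev i, v i * v (Fin.rev i)) ∨
    (∃ c : F, (∀ t : F, t ^ 2 + t + c ≠ 0) ∧
      ∃ P : Matrix.GeneralLinearGroup (Fin (2 * k + 1 + 1)) F, ∀ v, Q (P.1.mulVec v) =
        (∑ i with i.val < k, v i * v (Fin.rev i)) +
        (v ⟨k, by omega⟩ ^ 2 + v ⟨k, by omega⟩ * v ⟨k + 1, by omega⟩ +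
          c * v ⟨k + 1, by omega⟩ ^ 2)) := by
  rcases normal_form_GL Q hQ with h | ⟨hn, h⟩ | ⟨hn, hn2, c, hc, P, hP⟩
  · exact absurd h.1 (by
      rw [Nat.not_odd_iff_even]
      exact ⟨k + 1, by omega⟩)
  · exact Or.inl h
  · exact Or.inr ⟨c, hc, P, fun v => by rw [hP, nonsplitF_even]⟩

/-- The norm form: in every quadratic extension `K` of `F` there is a root `θ` of
`T ^ 2 - T + c`, and `x ^ 2 + x y + c y ^ 2` is the product of `x + y θ` and `x + y (1 - θ)`. -/
theorem exists_theta {K : Type*} [Field K] [Algebra F K] (hK : finrank F K = 2) {c : F}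
    (hc : ∀ t : F, t ^ 2 + t + c ≠ 0) :
    ∃ θ : K, θ ^ 2 = θ - algebraMap F K c ∧ (∀ t : F, algebraMap F K t ≠ θ) ∧
      (∀ z : K, ∃ x y : F, z = algebraMap F K x + algebraMap F K y * θ) ∧
      ∀ x y : F, (algebraMap F K x + algebraMap F K y * θ) *
        (algebraMap F K x + algebraMap F K y * (1 - θ)) =
        algebraMap F K (x ^ 2 + x * y + c * y ^ 2) := by
  have hfin : Module.Finite F K := Module.finite_of_finrank_pos (by omega)
  have hKf : Finite K := Module.finite_of_finite F
  let p : Polynomial F := Polynomial.X ^ 2 - Polynomial.X + Polynomial.C c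
  have hdeg : p.natDegree = 2 := by
    show (Polynomial.X ^ 2 - Polynomial.X + Polynomial.C c : Polynomial F).natDegree = 2
    compute_degree!
  have hp0 : p ≠ 0 := by
    intro h
    rw [h, Polynomial.natDegree_zero] at hdeg
    exact absurd hdeg (by norm_num)
  have hirr : Irreducible p := by
    refine Polynomial.irreducible_of_degree_le_three_of_not_isRoot ?_ fun t ht => ?_
    · rw [hdeg]
      simp
    · refine hc (-t) ?_
      have h1 : t ^ 2 - t + c = 0 := by
        have h2 : Polynomial.eval t (Polynomial.X ^ 2 - Polynomial.X + Polynomial.C c) = 0 := ht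
        simpa using h2
      linear_combination h1
  have : Fact (Irreducible p) := ⟨hirr⟩
  have hfr : finrank F (AdjoinRoot p) = 2 := by
    rw [(AdjoinRoot.powerBasis hp0).finrank, AdjoinRoot.powerBasis_dim, hdeg]
  obtain ⟨f⟩ := FiniteField.nonempty_algHom_of_finrank_dvd (F := F) (K := AdjoinRoot p) (L := K)
    (by rw [hfr, hK])
  have hroot : (f (AdjoinRoot.root p)) ^ 2 - f (AdjoinRoot.root p) + algebraMap F K c = 0 := by
    have h1 := AdjoinRoot.eval₂_root p
    have h2 : Polynomial.eval₂ (AdjoinRoot.of p) (AdjoinRoot.root p)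
      (Polynomial.X ^ 2 - Polynomial.X + Polynomial.C c) = 0 := h1
    simp only [Polynomial.eval₂_add, Polynomial.eval₂_sub, Polynomial.eval₂_pow,
      Polynomial.eval₂_X, Polynomial.eval₂_C] at h2
    have h3 := congrArg f h2
    rw [map_add, map_sub, map_pow, map_zero] at h3
    have h4 : f (AdjoinRoot.of p c) = algebraMap F K c := by
      have : AdjoinRoot.of p c = algebraMap F (AdjoinRoot p) c := rfl
      rw [this]
      exact f.commutes c
    rw [h4] at h3
    exact h3
  have hθ : (f (AdjoinRoot.root p)) ^ 2 = f (AdjoinRoot.root p) - algebraMap F K c := by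
    linear_combination hroot
  generalize f (AdjoinRoot.root p) = θ at hθ
  have hnot : ∀ t : F, algebraMap F K t ≠ θ := by
    intro t ht
    apply hc (-t)
    apply (algebraMap F K).injective
    rw [map_zero, map_add, map_add, map_pow, map_neg, ht]
    linear_combination hθ
  refine ⟨θ, hθ, hnot, ?_, ?_⟩
  · -- `1, θ` is a basis
    let L : (F × F) →ₗ[F] K :=
      { toFun := fun q => algebraMap F K q.1 + algebraMap F K q.2 * θ
        map_add' := fun q r => by
          simp only [Prod.fst_add, Prod.snd_add, map_add]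
          ring
        map_smul' := by
          rintro a ⟨x, y⟩
          simp only [Prod.smul_mk, smul_eq_mul, map_mul, RingHom.id_apply]
          rw [Algebra.smul_def]
          ring }
    have hL : Function.Injective L := by
      rw [← LinearMap.ker_eq_bot, LinearMap.ker_eq_bot']
      rintro ⟨x, y⟩ hxy
      have h1 : algebraMap F K x + algebraMap F K y * θ = 0 := hxy
      by_cases hy : y = 0
      · rw [hy, map_zero, zero_mul, add_zero] at h1
        have h2 : x = 0 := (algebraMap F K).injective (by rw [h1, map_zero])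
        rw [h2, hy]
        rfl
      · exfalso
        apply hnot (-(x / y))
        have hy' : algebraMap F K y ≠ 0 := by
          rw [Ne, map_eq_zero]
          exact hy
        rw [map_neg, map_div₀]
        field_simp
        linear_combination -h1
    have hsurj : Function.Surjective L := by
      exact (LinearMap.injective_iff_surjective_of_finrank_eq_finrank (by
        rw [Module.finrank_prod, Module.finrank_self, hK])).1 hL
    intro z
    obtain ⟨⟨x, y⟩, hxy⟩ := hsurj z
    exact ⟨x, y, hxy.symm⟩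
  · intro x y
    rw [map_add, map_add, map_mul, map_mul, map_pow, map_pow]
    linear_combination -(algebraMap F K y ^ 2) * hθ

end

end Vale.Agent.P240.R2.H703
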