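import Mathlib

/-!
Quadratic forms with nondegenerate polar form over a finite field: normal forms in coordinates.
-/

set_option autoImplicit false

namespace Vale.Agent.P240.R2.H703

open Module QuadraticMap

section
variable {F : Type*} [Field F]

/-- the polar form is nondegenerate -/
def ND {V : Type*} [AddCommGroup V] [Module F V] (Q : QuadraticForm F V) : Prop :=
  ∀ v, (∀ w, polar Q v w = 0) → v = 0

/-- the split form `sum over i < rev i of x i * x (rev i)`, plus `c * x i ^ 2` in the middle if
`n` is odd -/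
def splitF (n : ℕ) (c : F) (x : Fin n → F) : F :=
  ∑ i, if i < i.rev then x i * x i.rev else if i = i.rev then c * x i ^ 2 else 0

/-- the nonsplit form: products of opposite coordinates except for the middle pair `y, z`, where
it is `y ^ 2 + y * z + c * z ^ 2` -/
def nonsplitF (n : ℕ) (c : F) (x : Fin n → F) : F :=
  ∑ i, if i.val + 1 < i.rev.val then x i * x i.rev
    else if i.val + 1 = i.rev.val then x i ^ 2 + x i * x i.rev + c * x i.rev ^ 2 else 0

/-- the coordinates different from the first and the last one -/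
def mid {n : ℕ} (x : Fin (n + 2) → F) : Fin n → F := fun j => x j.castSucc.succ

lemma rev_mid {n : ℕ} (j : Fin n) : (j.castSucc.succ : Fin (n + 2)).rev = j.rev.castSucc.succ := by
  ext
  have := j.2
  simp only [Fin.val_rev, Fin.val_succ, Fin.val_castSucc]
  omega

lemma sum_mid {n : ℕ} (g : Fin (n + 2) → F) :
    ∑ i, g i = g 0 + ∑ j : Fin n, g j.castSucc.succ + g (Fin.last (n + 1)) := by
  rw [Fin.sum_univ_succ, Fin.sum_univ_castSucc]
  simp only [Fin.succ_last]
  ring

lemma splitF_mid (n : ℕ) (c : F) (x : Fin (n + 2) → F) :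
    splitF (n + 2) c x = x 0 * x (Fin.last (n + 1)) + splitF n c (mid x) := by
  unfold splitF
  rw [sum_mid]
  have h0 : (0 : Fin (n + 2)) < (0 : Fin (n + 2)).rev := by
    rw [Fin.lt_def]; simp
  have h1 : ¬ (Fin.last (n + 1)) < (Fin.last (n + 1)).rev := by
    rw [Fin.lt_def]; simp
  have h2 : ¬ (Fin.last (n + 1)) = (Fin.last (n + 1)).rev := by
    rw [Fin.ext_iff]; simp
  rw [if_pos h0, if_neg h1, if_neg h2, add_zero]
  have h3 : (0 : Fin (n + 2)).rev = Fin.last (n + 1) := by
    ext; simp
  rw [h3]
  congr 1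
  refine Finset.sum_congr rfl fun j _ => ?_
  rw [rev_mid]
  have e1 : (j.castSucc.succ : Fin (n + 2)) < j.rev.castSucc.succ ↔ j < j.rev := by
    rw [Fin.lt_def, Fin.lt_def]; simp
  have e2 : (j.castSucc.succ : Fin (n + 2)) = j.rev.castSucc.succ ↔ j = j.rev := by
    rw [Fin.ext_iff, Fin.ext_iff]; simp
  simp only [e1, e2, mid]

lemma nonsplitF_mid (n : ℕ) (hn : 1 ≤ n) (c : F) (x : Fin (n + 2) → F) :
    nonsplitF (n + 2) c x = x 0 * x (Fin.last (n + 1)) + nonsplitF n c (mid x) := by
  unfold nonsplitF
  rw [sum_mid]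
  have h0 : (0 : Fin (n + 2)).val + 1 < ((0 : Fin (n + 2)).rev).val := by
    simp; omega
  have h1 : ¬ (Fin.last (n + 1)).val + 1 < ((Fin.last (n + 1)).rev).val := by
    simp
  have h2 : ¬ (Fin.last (n + 1)).val + 1 = ((Fin.last (n + 1)).rev).val := by
    simp
  rw [if_pos h0, if_neg h1, if_neg h2, add_zero]
  have h3 : (0 : Fin (n + 2)).rev = Fin.last (n + 1) := by
    ext; simp
  rw [h3]
  congr 1
  refine Finset.sum_congr rfl fun j _ => ?_
  rw [rev_mid]
  have e1 : (j.castSucc.succ : Fin (n + 2)).val + 1 < (j.rev.castSucc.succ : Fin (n + 2)).val ↔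
      j.val + 1 < j.rev.val := by
    simp
  have e2 : (j.castSucc.succ : Fin (n + 2)).val + 1 = (j.rev.castSucc.succ : Fin (n + 2)).val ↔
      j.val + 1 = j.rev.val := by
    simp
  simp only [e1, e2, mid]

section V
variable {V : Type*} [AddCommGroup V] [Module F V] (Q : QuadraticForm F V)

lemma q_comb (a b : F) (v w : V) :
    Q (a • v + b • w) = a * a * Q v + b * b * Q w + a * b * polar Q v w := by
  rw [QuadraticMap.map_add Q, QuadraticMap.map_smul, QuadraticMap.map_smul, polar_smul_left,
    polar_smul_right]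
  simp only [smul_eq_mul]
  ring

variable {Q}

/-- an isotropic vector has an isotropic partner -/
lemma exists_partner (hQ : ND Q) {v : V} (hv : v ≠ 0) (h0 : Q v = 0) :
    ∃ w, Q w = 0 ∧ polar Q v w = 1 := by
  have h1 : ∃ w, polar Q v w ≠ 0 := by
    by_contra h
    push Not at h
    exact hv (hQ v h)
  obtain ⟨w, hw⟩ := h1
  obtain ⟨u, h2⟩ : ∃ u, polar Q v u = 1 :=
    ⟨(polar Q v w)⁻¹ • w, by rw [polar_smul_right, smul_eq_mul, inv_mul_cancel₀ hw]⟩
  refine ⟨u + (-(Q u)) • v, ?_, ?_⟩
  · rw [QuadraticMap.map_add Q, QuadraticMap.map_smul, polar_smul_right, polar_comm, h2, h0]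
    simp
  · rw [polar_add_right, polar_smul_right, h2, polar_self, h0]
    simp

/-- the orthogonal complement of a pair -/
def perp (Q : QuadraticForm F V) (v w : V) : Submodule F V :=
  LinearMap.ker (Q.polarBilin v) ⊓ LinearMap.ker (Q.polarBilin w)

lemma mem_perp {v w u : V} : u ∈ perp Q v w ↔ polar Q v u = 0 ∧ polar Q w u = 0 := by
  simp [perp]

/-- a hyperbolic pair splits off -/
noncomputable def splitOff {v w : V} (hv : Q v = 0) (hw : Q w = 0) (hvw : polar Q v w = 1) :
    ((F × F) × perp Q v w) ≃ₗ[F] V where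
  toFun p := p.1.1 • v + p.1.2 • w + (p.2 : V)
  map_add' p q := by
    simp only [Prod.fst_add, Prod.snd_add, Submodule.coe_add, add_smul]
    abel
  map_smul' a p := by
    simp only [Prod.smul_fst, Prod.smul_snd, Submodule.coe_smul, smul_eq_mul, mul_smul,
      RingHom.id_apply, smul_add]
  invFun x := ((polar Q w x, polar Q v x),
    ⟨x - polar Q w x • v - polar Q v x • w, by
      rw [mem_perp]
      have h1 : polar Q v v = 0 := by rw [polar_self, hv, smul_zero]
      have h2 : polar Q w w = 0 := by rw [polar_self, hw, smul_zero]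
      have h3 : polar Q w v = 1 := by rw [polar_comm, hvw]
      constructor
      · rw [polar_sub_right, polar_sub_right, polar_smul_right, polar_smul_right, h1, hvw]
        simp
      · rw [polar_sub_right, polar_sub_right, polar_smul_right, polar_smul_right, h2, h3]
        simp⟩)
  left_inv p := by
    obtain ⟨⟨a, b⟩, ⟨u, hu⟩⟩ := p
    rw [mem_perp] at hu
    have h1 : polar Q v v = 0 := by rw [polar_self, hv, smul_zero]
    have h2 : polar Q w w = 0 := by rw [polar_self, hw, smul_zero]
    have h3 : polar Q w v = 1 := by rw [polar_comm, hvw]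
    have e1 : polar Q w (a • v + b • w + u) = a := by
      rw [polar_add_right, polar_add_right, polar_smul_right, polar_smul_right, h2, h3, hu.2]
      simp
    have e2 : polar Q v (a • v + b • w + u) = b := by
      rw [polar_add_right, polar_add_right, polar_smul_right, polar_smul_right, h1, hvw, hu.1]
      simp
    simp only [e1, e2]
    congr 1
    apply Subtype.ext
    simp only
    abel
  right_inv x := by
    simp only
    abel

lemma splitOff_apply {v w : V} (hv : Q v = 0) (hw : Q w = 0) (hvw : polar Q v w = 1)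
    (a b : F) (u : perp Q v w) : splitOff hv hw hvw ((a, b), u) = a • v + b • w + (u : V) := rfl

lemma q_splitOff {v w : V} (hv : Q v = 0) (hw : Q w = 0) (hvw : polar Q v w = 1)
    (a b : F) (u : perp Q v w) : Q (splitOff hv hw hvw ((a, b), u)) = a * b + Q (u : V) := by
  rw [splitOff_apply, QuadraticMap.map_add Q, q_comb, hv, hw, hvw, polar_add_left, polar_smul_left,
    polar_smul_left, (mem_perp.1 u.2).1, (mem_perp.1 u.2).2]
  simp

lemma nd_perp (hQ : ND Q) {v w : V} (hv : Q v = 0) (hw : Q w = 0) (hvw : polar Q v w = 1) :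
    ND (Q.comp (perp Q v w).subtype) := by
  intro u hu
  apply Subtype.ext
  apply hQ
  intro x
  obtain ⟨⟨⟨a, b⟩, y⟩, rfl⟩ := (splitOff hv hw hvw).surjective x
  rw [splitOff_apply, polar_add_right, polar_add_right, polar_smul_right, polar_smul_right,
    polar_comm Q (u : V) v, polar_comm Q (u : V) w, (mem_perp.1 u.2).1, (mem_perp.1 u.2).2]
  have h := hu y
  have h' : polar Q (u : V) (y : V) = 0 := by
    simpa [polar] using h
  rw [h']
  simp

/-- coordinates from the complement of a hyperbolic pair -/
lemma ext_coord [Module.Finite F V] {n : ℕ} (hV : finrank F V = n + 2) {v w : V} (hv : Q v = 0)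
    (hw : Q w = 0) (hvw : polar Q v w = 1) (f : (Fin n → F) → F)
    (h : ∃ e : (Fin n → F) ≃ₗ[F] perp Q v w, ∀ x, Q ((e x : perp Q v w) : V) = f x) :
    ∃ e : (Fin (n + 2) → F) ≃ₗ[F] V,
      ∀ x, Q (e x) = x 0 * x (Fin.last (n + 1)) + f (mid x) := by
  obtain ⟨e, he⟩ := h
  let L : (Fin (n + 2) → F) →ₗ[F] V :=
    { toFun := fun x => splitOff hv hw hvw ((x 0, x (Fin.last (n + 1))), e (mid x))
      map_add' := fun x y => by
        rw [← map_add]
        congr 1
        simp only [Pi.add_apply, Prod.mk_add_mk]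
        congr 1
        rw [← map_add]
        rfl
      map_smul' := fun a x => by
        rw [RingHom.id_apply, ← map_smul]
        congr 1
        simp only [Pi.smul_apply, Prod.smul_mk]
        congr 1
        rw [← map_smul]
        rfl }
  have hL : Function.Injective L := by
    rw [← LinearMap.ker_eq_bot, LinearMap.ker_eq_bot']
    intro x hx
    have h1 : splitOff hv hw hvw ((x 0, x (Fin.last (n + 1))), e (mid x)) = 0 := hx
    rw [LinearEquiv.map_eq_zero_iff, Prod.ext_iff, Prod.ext_iff] at h1
    obtain ⟨⟨h2, h3⟩, h4⟩ := h1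
    have h5 : mid x = 0 := e.map_eq_zero_iff.1 h4
    funext i
    refine Fin.cases h2 (fun j => ?_) i
    refine Fin.lastCases h3 (fun k => ?_) j
    exact congrFun h5 k
  refine ⟨LinearMap.linearEquivOfInjective L hL ?_, fun x => ?_⟩
  · rw [hV, Module.finrank_fin_fun]
  · rw [LinearMap.linearEquivOfInjective_apply]
    show Q (splitOff hv hw hvw ((x 0, x (Fin.last (n + 1))), e (mid x))) = _
    rw [q_splitOff, he]

lemma finrank_perp [Module.Finite F V] {n : ℕ} (hV : finrank F V = n + 2) {v w : V}
    (hv : Q v = 0) (hw : Q w = 0) (hvw : polar Q v w = 1) : finrank F (perp Q v w) = n := by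
  have h := (splitOff hv hw hvw).finrank_eq
  rw [Module.finrank_prod, Module.finrank_prod, Module.finrank_self, hV] at h
  omega

end V

end

end Vale.Agent.P240.R2.H703
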