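import Vale.Agent.P240.R2.H703.QF

/-!
Quadratic forms with nondegenerate polar form over a finite field: isotropic vectors in dimension
at least three, anisotropic planes, and the normal forms in every dimension and characteristic.
-/

set_option autoImplicit false

namespace Vale.Agent.P240.R2.H703

open Module QuadraticMap

section
variable {F : Type*} [Field F] [Finite F]

/-- in characteristic two everything is a square -/
lemma exists_sq_two (h2 : (2 : F) = 0) (a : F) : ∃ b, b ^ 2 = a := by
  cases nonempty_fintype F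
  have hc : ringChar F = 2 := by
    have h1 : ringChar F ∣ 2 := by
      rw [← ringChar.spec]
      exact_mod_cast h2
    rcases (Nat.dvd_prime Nat.prime_two).1 h1 with h | h
    · exact absurd h (CharP.ringChar_ne_one)
    · exact h
  obtain ⟨b, hb⟩ := FiniteField.isSquare_of_char_two hc a
  exact ⟨b, by rw [hb, _root_.sq]⟩

/-- binary diagonal forms are universal in odd characteristic -/
lemma exists_rep (h2 : (2 : F) ≠ 0) {A B : F} (hA : A ≠ 0) (hB : B ≠ 0) (C : F) :
    ∃ a b, A * a ^ 2 + B * b ^ 2 = C := by
  classical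
  cases nonempty_fintype F
  have hodd : Fintype.card F % 2 = 1 := by
    apply FiniteField.odd_card_of_char_ne_two
    intro hc
    apply h2
    have := ringChar.Nat.cast_ringChar (R := F)
    rw [hc] at this
    exact_mod_cast this
  obtain ⟨a, b, hab⟩ := FiniteField.exists_root_sum_quadratic
    (f := Polynomial.C A * Polynomial.X ^ 2 - Polynomial.C C)
    (g := Polynomial.C B * Polynomial.X ^ 2)
    (by
      rw [Polynomial.degree_sub_eq_left_of_degree_lt]
      · exact Polynomial.degree_C_mul_X_pow 2 hA
      · rw [Polynomial.degree_C_mul_X_pow 2 hA]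
        exact lt_of_le_of_lt Polynomial.degree_C_le (by norm_num))
    (Polynomial.degree_C_mul_X_pow 2 hB) hodd
  refine ⟨a, b, ?_⟩
  simp only [Polynomial.eval_sub, Polynomial.eval_mul, Polynomial.eval_C, Polynomial.eval_pow,
    Polynomial.eval_X] at hab
  linear_combination hab

section V
variable {V : Type*} [AddCommGroup V] [Module F V] [Module.Finite F V] {Q : QuadraticForm F V}

omit [Finite F] in
/-- a nonzero vector orthogonal to two given ones, in dimension at least three -/
lemma exists_orth2 (hV : 2 < finrank F V) (v w : V) :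
    ∃ u, u ≠ 0 ∧ polar Q v u = 0 ∧ polar Q w u = 0 := by
  have h := LinearMap.ker_ne_bot_of_finrank_lt
    (f := (Q.polarBilin v).prod (Q.polarBilin w)) (by
      rw [Module.finrank_prod, Module.finrank_self]
      exact hV)
  obtain ⟨u, hu, hu0⟩ := (Submodule.ne_bot_iff _).1 h
  rw [LinearMap.ker_prod] at hu
  refine ⟨u, hu0, ?_, ?_⟩
  · simpa using hu.1
  · simpa using hu.2

omit [Finite F] in
lemma exists_orth1 (hV : 1 < finrank F V) (v : V) : ∃ u, u ≠ 0 ∧ polar Q v u = 0 := by
  have h := LinearMap.ker_ne_bot_of_finrank_lt (f := Q.polarBilin v) (by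
      rw [Module.finrank_self]
      exact hV)
  obtain ⟨u, hu, hu0⟩ := (Submodule.ne_bot_iff _).1 h
  exact ⟨u, hu0, by simpa using hu⟩

omit [Finite F] [Module.Finite F V] in
lemma exists_nz (hV : 0 < finrank F V) : ∃ v : V, v ≠ 0 := by
  have := Module.nontrivial_of_finrank_pos hV
  exact _root_.exists_ne 0

/-- isotropy in dimension at least three -/
lemma isotropic (hQ : ND Q) (hV : 2 < finrank F V) : ∃ v, v ≠ 0 ∧ Q v = 0 := by
  by_contra hcon
  push Not at hcon
  obtain ⟨v, hv⟩ := exists_nz (F := F) (V := V) (by omega)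
  have hQv := hcon v hv
  by_cases h2 : (2 : F) = 0
  · -- characteristic two
    have h1 : ∃ y, polar Q v y ≠ 0 := by
      by_contra h
      push Not at h
      exact hv (hQ v h)
    obtain ⟨y, hy⟩ := h1
    obtain ⟨w, hw, hw1, hw2⟩ := exists_orth2 (Q := Q) hV v y
    obtain ⟨a, ha⟩ := exists_sq_two h2 (Q w / Q v)
    refine hcon (a • v + w) ?_ ?_
    · intro h
      have h3 : polar Q y (a • v + w) = 0 := by rw [h, polar_zero_right]
      rw [polar_add_right, polar_smul_right, hw2, add_zero, smul_eq_mul, polar_comm] at h3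
      have h4 : a = 0 := by
        rcases mul_eq_zero.1 h3 with h4 | h4
        · exact h4
        · exact absurd h4 hy
      rw [h4, zero_smul, zero_add] at h
      exact hw h
    · rw [QuadraticMap.map_add Q, QuadraticMap.map_smul, polar_smul_left, hw1]
      have h5 : a * a * Q v = Q w := by
        rw [← _root_.sq, ha, div_mul_cancel₀ _ hQv]
      rw [smul_eq_mul, h5, smul_zero, add_zero]
      linear_combination h2 * Q w
  · obtain ⟨w, hw, hw1⟩ := exists_orth1 (Q := Q) (by omega) v
    obtain ⟨u, hu, hu1, hu2⟩ := exists_orth2 (Q := Q) hV v w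
    have hQw := hcon w hw
    have hQu := hcon u hu
    obtain ⟨a, b, hab⟩ := exists_rep h2 hQv hQw (-(Q u))
    refine hcon (a • v + b • w + u) ?_ ?_
    · intro h
      have h3 : polar Q u (a • v + b • w + u) = 0 := by rw [h, polar_zero_right]
      rw [polar_add_right, polar_add_right, polar_smul_right, polar_smul_right,
        polar_comm Q u v, polar_comm Q u w, hu1, hu2, polar_self] at h3
      simp only [smul_zero, zero_add, nsmul_eq_mul, Nat.cast_ofNat] at h3
      rcases mul_eq_zero.1 h3 with h4 | h4
      · exact h2 h4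
      · exact hQu h4
    · rw [QuadraticMap.map_add Q, q_comb, polar_add_left, polar_smul_left, polar_smul_left, hw1,
        hu1, hu2]
      simp only [smul_zero, mul_zero, add_zero]
      linear_combination hab

/-- a vector of value one in an anisotropic plane -/
lemma exists_one (hV : finrank F V = 2) (han : ∀ v, v ≠ 0 → Q v ≠ 0) :
    ∃ v, Q v = 1 := by
  obtain ⟨v, hv⟩ := exists_nz (F := F) (V := V) (by omega)
  have hQv := han v hv
  by_cases h2 : (2 : F) = 0
  · obtain ⟨a, ha⟩ := exists_sq_two h2 (Q v)⁻¹
    refine ⟨a • v, ?_⟩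
    rw [QuadraticMap.map_smul, smul_eq_mul, ← _root_.sq, ha, inv_mul_cancel₀ hQv]
  · obtain ⟨w, hw, hw1⟩ := exists_orth1 (Q := Q) (by omega) v
    obtain ⟨a, b, hab⟩ := exists_rep h2 hQv (han w hw) 1
    refine ⟨a • v + b • w, ?_⟩
    rw [q_comb, hw1]
    linear_combination hab

omit [Finite F] in
/-- a second basis vector -/
lemma exists_second (hQ : ND Q) (hV : finrank F V = 2) {e : V} (he : Q e = 1) :
    ∃ f, polar Q e f = 1 ∧ ∀ a b : F, a • e + b • f = 0 → a = 0 ∧ b = 0 := by
  have he0 : e ≠ 0 := by
    rintro rfl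
    rw [QuadraticMap.map_zero] at he
    exact zero_ne_one he
  have hee : polar Q e e = 2 := by
    rw [polar_self, he]
    simp
  by_cases h2 : (2 : F) = 0
  · have h1 : ∃ y, polar Q e y ≠ 0 := by
      by_contra h
      push Not at h
      exact he0 (hQ e h)
    obtain ⟨y, hy⟩ := h1
    obtain ⟨f, hf⟩ : ∃ f, polar Q e f = 1 :=
      ⟨(polar Q e y)⁻¹ • y, by rw [polar_smul_right, smul_eq_mul, inv_mul_cancel₀ hy]⟩
    refine ⟨f, hf, fun a b h => ?_⟩
    have h3 : polar Q e (a • e + b • f) = 0 := by rw [h, polar_zero_right]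
    rw [polar_add_right, polar_smul_right, polar_smul_right, hee, hf, h2, smul_zero, zero_add,
      smul_eq_mul, mul_one] at h3
    subst h3
    rw [zero_smul, add_zero] at h
    exact ⟨(smul_eq_zero.1 h).resolve_right he0, rfl⟩
  · obtain ⟨f, hf, hf1⟩ := exists_orth1 (Q := Q) (by omega) e
    refine ⟨(2 : F)⁻¹ • e + f, ?_, fun a b h => ?_⟩
    · rw [polar_add_right, polar_smul_right, hee, hf1, smul_eq_mul, inv_mul_cancel₀ h2, add_zero]
    · have h3 : polar Q e (a • e + b • ((2 : F)⁻¹ • e + f)) = 0 := by rw [h, polar_zero_right]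
      rw [polar_add_right, polar_smul_right, polar_smul_right, polar_add_right, polar_smul_right,
        hee, hf1, smul_eq_mul, smul_eq_mul, smul_eq_mul, inv_mul_cancel₀ h2, add_zero,
        mul_one] at h3
      have h4 : b = -(a * 2) := by linear_combination h3
      have h5 : b • f = 0 := by
        have h6 : a • e + b • ((2 : F)⁻¹ • e + f) = (a + b * (2 : F)⁻¹) • e + b • f := by
          rw [smul_add, smul_smul, add_smul]
          abel
        rw [h6, h4] at h
        have h7 : a + -(a * 2) * (2 : F)⁻¹ = 0 := by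
          field_simp
          ring
        rw [h7, zero_smul, zero_add] at h
        rw [h4]
        exact h
      have h8 : b = 0 := (smul_eq_zero.1 h5).resolve_right hf
      refine ⟨?_, h8⟩
      rw [h8] at h4
      have h9 : a * 2 = 0 := by linear_combination h4
      exact (mul_eq_zero.1 h9).resolve_right h2

/-- anisotropic planes -/
lemma plane (hQ : ND Q) (hV : finrank F V = 2) (han : ∀ v, v ≠ 0 → Q v ≠ 0) :
    ∃ c : F, (∀ t : F, t ^ 2 + t + c ≠ 0) ∧
      ∃ e : (Fin 2 → F) ≃ₗ[F] V, ∀ x, Q (e x) = nonsplitF 2 c x := by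
  obtain ⟨e, he⟩ := exists_one hV han
  obtain ⟨f, hf, hind⟩ := exists_second hQ hV he
  refine ⟨Q f, fun t ht => ?_, ?_⟩
  · refine han (t • e + f) ?_ ?_
    · intro h
      have := hind t 1 (by rw [one_smul]; exact h)
      exact one_ne_zero this.2
    · rw [QuadraticMap.map_add Q, QuadraticMap.map_smul, polar_smul_left, he, hf]
      simp only [smul_eq_mul, mul_one]
      linear_combination ht
  · let L : (Fin 2 → F) →ₗ[F] V :=
      { toFun := fun x => x 0 • e + x 1 • f
        map_add' := fun x y => by
          simp only [Pi.add_apply, add_smul]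
          abel
        map_smul' := fun a x => by
          simp only [Pi.smul_apply, smul_eq_mul, mul_smul, RingHom.id_apply, smul_add] }
    have hL : Function.Injective L := by
      rw [← LinearMap.ker_eq_bot, LinearMap.ker_eq_bot']
      intro x hx
      have h1 := hind (x 0) (x 1) hx
      funext i
      fin_cases i
      · exact h1.1
      · exact h1.2
    refine ⟨LinearMap.linearEquivOfInjective L hL ?_, fun x => ?_⟩
    · rw [hV, Module.finrank_fin_fun]
    · rw [LinearMap.linearEquivOfInjective_apply]
      show Q (x 0 • e + x 1 • f) = _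
      rw [q_comb, he, hf]
      unfold nonsplitF
      rw [Fin.sum_univ_two]
      simp
      ring

end V

/-- NORMAL FORMS. Over a finite field a quadratic form with nondegenerate polar form on a space of
dimension `n` is, in suitable coordinates, the split form (with a nonzero middle coefficient if
`n` is odd; then the characteristic is odd) or, for even `n`, the nonsplit form. -/
theorem normal_form (n : ℕ) : ∀ (V : Type*) [AddCommGroup V] [Module F V] [Module.Finite F V]
    (Q : QuadraticForm F V), ND Q → finrank F V = n →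
    ((Odd n → (2 : F) ≠ 0) ∧ ((∃ c : F, c ≠ 0 ∧ ∃ e : (Fin n → F) ≃ₗ[F] V,
        ∀ x, Q (e x) = splitF n c x) ∨
      (Even n ∧ 2 ≤ n ∧ ∃ c : F, (∀ t : F, t ^ 2 + t + c ≠ 0) ∧ ∃ e : (Fin n → F) ≃ₗ[F] V,
        ∀ x, Q (e x) = nonsplitF n c x))) := by
  induction n using Nat.strong_induction_on with
  | _ n ih =>
  intro V _ _ _ Q hQ hV
  by_cases hiso : ∃ v, v ≠ 0 ∧ Q v = 0
  · obtain ⟨v, hv, h0⟩ := hiso
    obtain ⟨w, hw0, hvw⟩ := exists_partner hQ hv h0
    have hr := (splitOff h0 hw0 hvw).finrank_eq
    rw [Module.finrank_prod, Module.finrank_prod, Module.finrank_self, hV] at hr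
    obtain ⟨m, rfl⟩ : ∃ m, n = m + 2 := ⟨n - 2, by omega⟩
    obtain ⟨h1, h2⟩ := ih m (by omega) (perp Q v w) (Q.comp (perp Q v w).subtype)
      (nd_perp hQ h0 hw0 hvw) (finrank_perp hV h0 hw0 hvw)
    refine ⟨fun ho => h1 ?_, ?_⟩
    · obtain ⟨k, hk⟩ := ho
      exact ⟨k - 1, by omega⟩
    · rcases h2 with ⟨c, hc, e, he⟩ | ⟨hm, hm2, c, hc, e, he⟩
      · left
        obtain ⟨e', he'⟩ := ext_coord hV h0 hw0 hvw (splitF m c) ⟨e, fun x => by
          rw [← he]; rfl⟩
        exact ⟨c, hc, e', fun x => by rw [he', splitF_mid]⟩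
      · right
        obtain ⟨e', he'⟩ := ext_coord hV h0 hw0 hvw (nonsplitF m c) ⟨e, fun x => by
          rw [← he]; rfl⟩
        exact ⟨hm.add even_two, by omega, c, hc, e', fun x => by
          rw [he', nonsplitF_mid _ (by omega)]⟩
  · push Not at hiso
    have hn : n ≤ 2 := by
      by_contra h
      obtain ⟨v, hv, h0⟩ := isotropic hQ (by omega : 2 < finrank F V)
      exact hiso v hv h0
    interval_cases n
    · refine ⟨fun h => absurd h (by decide), Or.inl ⟨1, one_ne_zero, ?_⟩⟩
      refine ⟨LinearEquiv.ofFinrankEq _ _ (by rw [hV, Module.finrank_fin_fun]), fun x => ?_⟩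
      have hx : x = 0 := Subsingleton.elim _ _
      rw [hx, map_zero, QuadraticMap.map_zero]
      simp [splitF]
    · obtain ⟨v, hv⟩ := exists_nz (F := F) (V := V) (by omega)
      have hsp : ∀ y : V, ∃ a : F, a • v = y := (finrank_eq_one_iff_of_nonzero' v hv).1 hV
      have h2 : (2 : F) ≠ 0 := by
        intro h2
        refine hv (hQ v fun w => ?_)
        obtain ⟨a, rfl⟩ := hsp w
        rw [polar_smul_right, polar_self, nsmul_eq_mul, Nat.cast_ofNat, h2, zero_mul, smul_zero]
      refine ⟨fun _ => h2, Or.inl ⟨Q v, hiso v hv, ?_⟩⟩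
      let L : (Fin 1 → F) →ₗ[F] V :=
        { toFun := fun x => x 0 • v
          map_add' := fun x y => by simp only [Pi.add_apply, add_smul]
          map_smul' := fun a x => by
            simp only [Pi.smul_apply, smul_eq_mul, mul_smul, RingHom.id_apply] }
      have hL : Function.Injective L := by
        rw [← LinearMap.ker_eq_bot, LinearMap.ker_eq_bot']
        intro x hx
        have h1 : x 0 = 0 := (smul_eq_zero.1 hx).resolve_right hv
        funext i
        fin_cases i
        exact h1
      refine ⟨LinearMap.linearEquivOfInjective L hL ?_, fun x => ?_⟩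
      · rw [hV, Module.finrank_fin_fun]
      · rw [LinearMap.linearEquivOfInjective_apply]
        show Q (x 0 • v) = _
        rw [QuadraticMap.map_smul]
        unfold splitF
        rw [Fin.sum_univ_one]
        simp
        ring
    · refine ⟨fun h => absurd h (by decide), Or.inr ⟨by decide, le_refl _, ?_⟩⟩
      exact plane hQ hV hiso

end

end Vale.Agent.P240.R2.H703
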